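import Vale.Agent.P109.Epoch
import Vale.Agent.P109.Code
import Vale.Agent.P109.Params
import Vale.Agent.P109.System
import Vale.Agent.P109.Ergodic
import Vale.Agent.P109.Entropy
import Vale.Agent.P109.Lift

namespace Vale.Agent.Results.P109.NoSmoothModel

open MeasureTheory Vale.Agent.P109
open scoped ENNReal

theorem result : ∃ (X : Type) (_ : MeasurableSpace X) (_ : StandardBorelSpace X)
    (μ : Measure X) (T : X ≃ᵐ X), IsProbabilityMeasure μ ∧ (∀ x, μ {x} = 0) ∧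
    Ergodic T μ ∧ ksEntropy μ T < ∞ ∧ ¬ HasSmoothModel μ T := by
  choose lam n₁ hlam hep using fun (k n₀ : ℕ) =>
    epoch (C := (((Nat.unpair k).2 + 2 : ℕ) : ℝ)) (Nat.unpair k).1
      (by push_cast; linarith [Nat.cast_nonneg (α := ℝ) (Nat.unpair k).2]) n₀
  obtain ⟨b, D, hb0, hb1, hstep, hsmall, hfree, hk⟩ := exists_params lam n₁ hlam
  choose e hinj hpr using fun n => exists_code (b n) (b (n + 1)) (D n) (hstep n) (hb1 n) (hsmall n)
  let F : Fam b D := ⟨e, hb0, hstep, hsmall, hinj, hpr⟩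
  obtain ⟨X, _, _, μ, T, hμ, hna, hT, Ad, hG⟩ := exists_system F
  refine ⟨X, inferInstance, inferInstance, μ, T, hμ, hna, Ad.ergodic hT hG hfree,
    Ad.ksEntropy_lt_top hT hG, fun h => ?_⟩
  obtain ⟨d, C, hC, Ω, _, ⟨J⟩⟩ := exists_joint hna hT Ad h
  obtain ⟨c, rfl⟩ : ∃ c, C = c + 2 := ⟨C - 2, by omega⟩
  obtain ⟨n₀, n', n'', h1, h2, h3, h4, h5, h6⟩ := hk (Nat.pair d c)
  have := hep (Nat.pair d c) n₀ b D F n' n'' h1 h2 h3 h4 h5 h6 Ω
  rw [Nat.unpair_pair] at this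
  exact this.false J

end Vale.Agent.Results.P109.NoSmoothModel
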